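import Mathlib

/-! The planar `L²` estimate, integrated over the planes through the stem. -/

namespace Vale.Agent.P127H

open MeasureTheory Set Metric ENNReal

abbrev W (k : ℕ) := ℝ × (Fin k → ℝ)

noncomputable def gk (a x : ℝ) : ℝ≥0∞ := if x = 0 then ⊤ else ENNReal.ofReal (|x| ^ (-a))

theorem gk_meas (a : ℝ) : Measurable (gk a) :=
  Measurable.ite (measurableSet_singleton 0) measurable_const (by fun_prop)

theorem gk_int {a : ℝ} (ha : a < 1) : ∃ J : ℝ, 0 ≤ J ∧ ∀ c : ℝ, |c| ≤ 1 →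
    ∫⁻ x in closedBall (0 : ℝ) 1, gk a (c - x) ≤ ENNReal.ofReal J := by
  have hi : IntegrableOn (fun x : ℝ => |x| ^ (-a)) (ball 0 3) volume :=
    integrableOn_ball_of_norm_le_rpow (E := ℝ) (C := 1) (α := a) (by simp) (by simpa using ha)
      (Filter.Eventually.of_forall fun x => by
        rw [Real.norm_of_nonneg (by positivity), one_mul, Real.norm_eq_abs])
      (Measurable.aestronglyMeasurable (by fun_prop))
  have hfin : ∫⁻ x in ball (0 : ℝ) 3, gk a x ≠ ⊤ := by
    have e : ∫⁻ x in ball (0 : ℝ) 3, gk a x = ∫⁻ x in ball (0 : ℝ) 3, ENNReal.ofReal (|x| ^ (-a)) := by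
      refine lintegral_congr_ae (ae_restrict_of_ae ?_)
      filter_upwards [compl_mem_ae_iff.2 (measure_singleton (0 : ℝ))] with x hx
      exact if_neg hx
    rw [e]
    exact hi.lintegral_lt_top.ne
  refine ⟨_, ENNReal.toReal_nonneg (a := ∫⁻ x in ball (0 : ℝ) 3, gk a x), fun c hc => ?_⟩
  rw [ENNReal.ofReal_toReal hfin, ← lintegral_indicator measurableSet_closedBall,
    ← lintegral_indicator measurableSet_ball,
    ← lintegral_sub_left_eq_self ((ball (0 : ℝ) 3).indicator (gk a)) c]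
  refine lintegral_mono fun x => ?_
  by_cases hx : x ∈ closedBall (0 : ℝ) 1
  · have : c - x ∈ ball (0 : ℝ) 3 := by
      rw [mem_closedBall_zero_iff, Real.norm_eq_abs] at hx
      rw [mem_ball_zero_iff, Real.norm_eq_abs]
      have := abs_sub c x
      linarith
    rw [indicator_of_mem hx, indicator_of_mem this]
  · rw [indicator_of_notMem hx]
    exact zero_le

theorem tset {a T d : ℝ} (ha0 : 0 ≤ a) (ha : a ≤ 1) (hT : 1 ≤ T) (hd : 0 < d) (x y : ℝ) :
    volume {t : ℝ | |t| ≤ T ∧ |y + t * x| ≤ d} ≤ ENNReal.ofReal (2 * T * d ^ a) * gk a x := by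
  by_cases hx : x = 0
  · rw [gk, if_pos hx, ENNReal.mul_top (ENNReal.ofReal_pos.2 (by positivity)).ne']
    exact le_top
  have hx' : 0 < |x| := abs_pos.2 hx
  rw [gk, if_neg hx, ← ENNReal.ofReal_mul (by positivity), mul_assoc, Real.rpow_neg hx'.le,
    ← div_eq_mul_inv, ← Real.div_rpow hd.le hx'.le]
  have hz : 0 < d / |x| := by positivity
  rcases le_total (d / |x|) 1 with h | h
  · refine (measure_mono (t := closedBall (-y / x) (d / |x|)) ?_).trans ?_
    · intro t ht
      rw [mem_closedBall, Real.dist_eq, le_div_iff₀ hx', ← abs_mul]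
      have : (t - -y / x) * x = y + t * x := by field_simp; ring
      rw [this]
      exact ht.2
    · rw [Real.volume_closedBall]
      refine ENNReal.ofReal_le_ofReal ?_
      have h1 : d / |x| ≤ (d / |x|) ^ a := by
        simpa using Real.rpow_le_rpow_of_exponent_ge hz h ha
      nlinarith
  · refine (measure_mono (t := closedBall 0 T) ?_).trans ?_
    · intro t ht
      simpa using ht.1
    · rw [Real.volume_closedBall]
      refine ENNReal.ofReal_le_ofReal ?_
      have h1 := Real.one_le_rpow h ha0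
      nlinarith

theorem core {k N : ℕ} {a T d ρ J : ℝ} (ha0 : 0 ≤ a) (ha : a ≤ 1) (hT : 1 ≤ T) (hd : 0 < d)
    (hρ : 0 ≤ ρ) (hJ : ∀ c : ℝ, |c| ≤ 1 →
      ∫⁻ x in closedBall (0 : ℝ) 1, gk a (c - x) ≤ ENNReal.ofReal J)
    (G : Set (W k)) (hG : MeasurableSet G) (hGQ : G ⊆ closedBall 0 1) (h : W k → ℝ)
    (S : ℕ → Set (W k × ℝ)) (hS : ∀ i, MeasurableSet (S i)) (hdisj : Pairwise (Function.onFun Disjoint S))
    (hc : ∀ i, ∀ x ∈ S i, ∀ y ∈ S i, |x.2 - y.2| ≤ d ∧ ‖x.1.2 - y.1.2‖ ≤ ρ ∧ |x.2| ≤ T ∧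
      |h x.1 - h y.1 + x.2 * (x.1.1 - y.1.1)| ≤ d)
    (lam : ℝ≥0∞) (hl : ∀ w ∈ G, lam ≤ ∑ i ∈ Finset.range N, volume (Prod.mk w ⁻¹' S i)) :
    lam ^ 2 * volume G ≤ N * (ENNReal.ofReal (2 * d) * ENNReal.ofReal (2 * T * d ^ a) *
      (ENNReal.ofReal J * ENNReal.ofReal ((2 * ρ) ^ k))) := by
  obtain ⟨A, hA⟩ : ∃ A : ℕ → W k → ℝ≥0∞, A = fun i w => volume (Prod.mk w ⁻¹' S i) := ⟨_, rfl⟩
  have hAm : ∀ i, Measurable (A i) := fun i => hA ▸ measurable_measure_prodMk_left (hS i)
  obtain ⟨c, hcd⟩ : ∃ c : ℝ≥0∞, c = ENNReal.ofReal (2 * d) * ENNReal.ofReal (2 * T * d ^ a) :=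
    ⟨_, rfl⟩
  rw [← hcd]
  have hP : ∀ w w' : W k, ∑ i ∈ Finset.range N, A i w * A i w' ≤
      c * (gk a (w.1 - w'.1) * (closedBall w.2 ρ).indicator 1 w'.2) := by
    intro w w'
    obtain ⟨Z, hZ⟩ : ∃ Z : Set ℝ, Z = {t : ℝ | (|t| ≤ T ∧ |h w - h w' + t * (w.1 - w'.1)| ≤ d) ∧
      w'.2 ∈ closedBall w.2 ρ} := ⟨_, rfl⟩
    have hZm : MeasurableSet Z := by
      rw [hZ]
      have m1 : MeasurableSet {t : ℝ | |t| ≤ T} := measurableSet_le (by fun_prop) (by fun_prop)
      have m2 : MeasurableSet {t : ℝ | |h w - h w' + t * (w.1 - w'.1)| ≤ d} :=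
        measurableSet_le (by fun_prop) (by fun_prop)
      exact (m1.inter m2).inter (MeasurableSet.const _)
    have h1 : ∀ i, A i w * A i w' ≤ volume (Prod.mk w ⁻¹' S i ∩ Z) * ENNReal.ofReal (2 * d) := by
      intro i
      rcases (Prod.mk w' ⁻¹' S i).eq_empty_or_nonempty with he | ⟨t', ht'⟩
      · simp [hA, he]
      · rw [hA]
        refine mul_le_mul' (measure_mono fun t ht => ⟨ht, ?_⟩) ?_
        · have := hc i _ ht _ ht'
          rw [hZ]
          exact ⟨⟨this.2.2.1, this.2.2.2⟩, by rw [mem_closedBall, dist_comm, dist_eq_norm]; exact this.2.1⟩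
        · rw [← Real.volume_closedBall t']
          exact measure_mono fun t ht => (hc i _ ht _ ht').1
    have h2 : ∑ i ∈ Finset.range N, volume (Prod.mk w ⁻¹' S i ∩ Z) ≤ volume Z := by
      rw [← measure_biUnion_finset]
      · exact measure_mono (iUnion₂_subset fun i _ => inter_subset_right)
      · intro i _ j _ hij
        exact ((hdisj hij).preimage (Prod.mk w)).mono inter_subset_left inter_subset_left
      · exact fun i _ => (measurable_prodMk_left (hS i)).inter hZm
    have h3 : volume Z ≤ ENNReal.ofReal (2 * T * d ^ a) *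
        (gk a (w.1 - w'.1) * (closedBall w.2 ρ).indicator 1 w'.2) := by
      by_cases hb : w'.2 ∈ closedBall w.2 ρ
      · rw [indicator_of_mem hb, Pi.one_apply, mul_one]
        refine le_trans (measure_mono ?_) (tset ha0 ha hT hd (w.1 - w'.1) (h w - h w'))
        rw [hZ]
        exact fun t ht => ht.1
      · have : Z = ∅ := by rw [hZ]; exact eq_empty_of_forall_notMem fun t ht => hb ht.2
        simp [this]
    calc _ ≤ ∑ i ∈ Finset.range N, volume (Prod.mk w ⁻¹' S i ∩ Z) * ENNReal.ofReal (2 * d) :=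
          Finset.sum_le_sum fun i _ => h1 i
      _ ≤ _ := by
          rw [← Finset.sum_mul, hcd, mul_comm, mul_assoc]
          exact mul_le_mul' le_rfl (h2.trans h3)
  have hQ : ∀ w ∈ G, ∫⁻ w' in G, gk a (w.1 - w'.1) * (closedBall w.2 ρ).indicator 1 w'.2 ≤
      ENNReal.ofReal J * ENNReal.ofReal ((2 * ρ) ^ k) := by
    intro w hw
    have hsub : G ⊆ closedBall (0 : ℝ) 1 ×ˢ univ := fun z hz => ⟨by
      have := hGQ hz
      rw [mem_closedBall_zero_iff] at this ⊢
      exact (norm_fst_le z).trans this, trivial⟩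
    refine (lintegral_mono_set hsub).trans ?_
    rw [Measure.volume_eq_prod, ← Measure.prod_restrict, Measure.restrict_univ,
      lintegral_prod_mul (f := fun x => gk a (w.1 - x))
        ((gk_meas a).comp (by fun_prop)).aemeasurable
        (measurable_one.indicator measurableSet_closedBall).aemeasurable,
      lintegral_indicator_one measurableSet_closedBall, Real.volume_pi_closedBall _ hρ,
      Fintype.card_fin]
    exact mul_le_mul' (hJ _ (hsub hw |>.1 |> fun h => by simpa using h)) le_rfl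
  have hlow : lam * volume G ≤ ∑ i ∈ Finset.range N, ∫⁻ w in G, A i w := by
    rw [← lintegral_finsetSum _ fun i _ => hAm i, ← setLIntegral_const]
    exact setLIntegral_mono' hG fun w hw => by rw [hA]; exact hl w hw
  have hup : ∑ i ∈ Finset.range N, (∫⁻ w in G, A i w) ^ (2 : ℝ) ≤
      c * (ENNReal.ofReal J * ENNReal.ofReal ((2 * ρ) ^ k)) * volume G := by
    have e : ∀ i, (∫⁻ w in G, A i w) ^ (2 : ℝ) = ∫⁻ w in G, ∫⁻ w' in G, A i w * A i w' := by
      intro i
      rw [lintegral_lintegral_mul (hAm i).aemeasurable (hAm i).aemeasurable, ENNReal.rpow_two, sq]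
    simp only [e]
    rw [← lintegral_finsetSum _ fun i _ => by
      simp only [lintegral_const_mul _ (hAm i)]; exact (hAm i).mul_const _, ← setLIntegral_const]
    refine setLIntegral_mono' hG fun w hw => ?_
    rw [← lintegral_finsetSum _ fun i _ => (hAm i).const_mul _]
    refine (lintegral_mono (hP w)).trans ?_
    rw [lintegral_const_mul' _ _ (by rw [hcd]; finiteness)]
    exact mul_le_mul' le_rfl (hQ w hw)
  have hcs := ENNReal.rpow_sum_le_const_mul_sum_rpow (s := Finset.range N)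
    (f := fun i => ∫⁻ w in G, A i w) (p := 2) (by norm_num)
  rw [Finset.card_range, show (2 : ℝ) - 1 = 1 by norm_num, ENNReal.rpow_one, ENNReal.rpow_two] at hcs
  have hall := (pow_le_pow_left' hlow 2).trans (hcs.trans (mul_le_mul' le_rfl hup))
  by_cases h0 : volume G = 0
  · simp [h0]
  have htop : volume G ≠ ⊤ := ((measure_mono hGQ).trans_lt measure_closedBall_lt_top).ne
  rw [mul_pow, sq (volume G), ← mul_assoc, ← mul_assoc] at hall
  exact (ENNReal.mul_le_mul_iff_left h0 htop).1 hall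

end Vale.Agent.P127H
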