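import Vale.Agent.P127H.Scale

/-! Summation over scales. -/

namespace Vale.Agent.P127H

open MeasureTheory Set Metric ENNReal Filter Topology

/-- The upper box-counting dimension of `A` is at most `b`. -/
def BoxLe {X : Type} [PseudoMetricSpace X] (A : Set X) (b : ℝ) : Prop :=
  ∀ ε > 0, ∃ C : ℝ, ∀ δ ∈ Ioc (0 : ℝ) 1, ∃ S : Finset X,
    (S.card : ℝ) ≤ C * δ ^ (-(b + ε)) ∧ A ⊆ ⋃ x ∈ S, closedBall x δ

theorem expo {k : ℕ} {δ b s ε C T J : ℝ} (hδ : 0 < δ) (he : (k + 5) * ε = k + 2 - b - s) :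
    C * δ ^ (-(b + ε)) * (((δ / 2) ^ s)⁻¹ * (2 * (4 * (3 * δ)) * (2 * T * (4 * (3 * δ)) ^ (1 - ε)) *
      (J * (2 * (4 * (3 * δ) / δ ^ ε)) ^ k))) =
      (δ ^ ε) ^ 2 * (C * 2 ^ s * 48 * T * 12 ^ (1 - ε) * J * 24 ^ k * δ ^ ε) := by
  have key : δ ^ (k + 2) = δ ^ (b + ε) * δ ^ s * δ ^ ε * (δ ^ ε) ^ k * (δ ^ ε) ^ 3 := by
    rw [← Real.rpow_natCast, ← Real.rpow_natCast, ← Real.rpow_natCast, ← Real.rpow_mul hδ.le,
      ← Real.rpow_mul hδ.le, ← Real.rpow_add hδ, ← Real.rpow_add hδ, ← Real.rpow_add hδ,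
      ← Real.rpow_add hδ]
    congr 1
    push_cast
    linarith
  have e1 : (4 * (3 * δ)) ^ (1 - ε) = 12 ^ (1 - ε) * (δ / δ ^ ε) := by
    rw [show 4 * (3 * δ) = 12 * δ by ring, Real.mul_rpow (by norm_num) hδ.le, Real.rpow_sub hδ,
      Real.rpow_one]
  have e2 : (2 * (4 * (3 * δ) / δ ^ ε)) ^ k = 24 ^ k * δ ^ k / (δ ^ ε) ^ k := by
    rw [← mul_pow, ← div_pow]
    congr 1
    ring
  rw [e1, e2, Real.rpow_neg hδ.le, Real.div_rpow hδ.le (by norm_num)]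
  have h1 : 0 < δ ^ (b + ε) := by positivity
  have h2 : 0 < δ ^ s := by positivity
  have h3 : 0 < δ ^ ε := by positivity
  have h4 : δ ^ k = δ ^ (b + ε) * δ ^ s * δ ^ ε * (δ ^ ε) ^ k * (δ ^ ε) ^ 3 / δ ^ 2 := by
    rw [← key, pow_add]
    field_simp
  rw [h4]
  field_simp
  ring

theorem cover {X : Type} [MetricSpace X] [MeasurableSpace X] [BorelSpace X] [Inhabited X]
    {K : Set X} {s : ℝ} (hs : 0 < s) (h0 : μH[s] K = 0) (l₀ : ℕ) :
    ∃ (c : ℕ → X) (N : ℕ → ℕ) (x : ℕ → ℕ → X),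
      (∀ l, (N l : ℝ≥0∞) ≤ ENNReal.ofReal ((((1 / 2 : ℝ) ^ l / 2) ^ s)⁻¹)) ∧
      ∀ z ∈ K, z ∈ range c ∨ ∃ m, ∃ i < N (l₀ + m), dist z (x (l₀ + m) i) ≤ (1 / 2) ^ (l₀ + m) := by
  rw [Measure.hausdorffMeasure_apply] at h0
  have h1 := (le_iSup₂_of_le (ENNReal.ofReal ((1 / 2) ^ l₀)) (ENNReal.ofReal_pos.2 (by positivity))
    le_rfl).trans_lt (h0.trans_lt zero_lt_one)
  simp only [iInf_lt_iff] at h1
  obtain ⟨t, hc, hd, hsum⟩ := h1
  have hch : ∀ j, ∃ y : X, (t j).Nonempty → y ∈ t j := fun j => by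
    by_cases h : (t j).Nonempty
    · exact ⟨h.some, fun _ => h.some_mem⟩
    · exact ⟨default, fun h' => absurd h' h⟩
  choose c hcm using hch
  have hF := fun l : ℕ => ENNReal.finset_card_const_le_le_of_tsum_le ENNReal.one_ne_top hsum.le
    (ε := ENNReal.ofReal (((1 / 2 : ℝ) ^ l / 2) ^ s)) (ENNReal.ofReal_pos.2 (by positivity)).ne'
  choose hf hcard using hF
  refine ⟨c, fun l => (hf l).toFinset.card, fun l i => if h : i < (hf l).toFinset.card then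
    c ((hf l).toFinset.equivFin.symm ⟨i, h⟩) else default, fun l => ?_, fun z hz => ?_⟩
  · rw [ENNReal.ofReal_inv_of_pos (by positivity), ← one_div]
    exact hcard l
  obtain ⟨j, hj⟩ := mem_iUnion.1 (hc hz)
  have hne : ediam (t j) ≠ ⊤ := ne_top_of_le_ne_top ENNReal.ofReal_ne_top (hd j)
  have hz1 : dist z (c j) ≤ diam (t j) := dist_le_diam_of_mem' hne hj (hcm j ⟨z, hj⟩)
  rcases (diam_nonneg (s := t j)).eq_or_lt with h | h
  · exact Or.inl ⟨j, (dist_le_zero.1 (h ▸ hz1)).symm⟩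
  right
  have hp : (0 : ℝ) < (1 / 2) ^ l₀ := by positivity
  have hle : diam (t j) ≤ (1 / 2) ^ l₀ := ENNReal.toReal_le_of_le_ofReal hp.le (hd j)
  obtain ⟨m, hm1, hm2⟩ := exists_nat_pow_near_of_lt_one (div_pos h hp) ((div_le_one hp).2 hle)
    (by norm_num : (0 : ℝ) < 1 / 2) (by norm_num)
  rw [lt_div_iff₀ hp] at hm1
  rw [div_le_iff₀ hp] at hm2
  have hmem : j ∈ (hf (l₀ + m)).toFinset := by
    rw [Finite.mem_toFinset]
    have hne' : (t j).Nonempty := ⟨z, hj⟩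
    show _ ≤ ⨆ _ : (t j).Nonempty, ediam (t j) ^ s
    rw [iSup_pos hne']
    rw [← ENNReal.ofReal_toReal hne, ENNReal.ofReal_rpow_of_nonneg ENNReal.toReal_nonneg hs.le]
    refine ENNReal.ofReal_le_ofReal (Real.rpow_le_rpow (by positivity) ?_ hs.le)
    refine le_trans (le_of_eq ?_) hm1.le
    rw [pow_add, pow_succ]
    ring
  refine ⟨m, ((hf (l₀ + m)).toFinset.equivFin ⟨j, hmem⟩).1, Fin.is_lt _, ?_⟩
  beta_reduce
  rw [dif_pos (Fin.is_lt _), Fin.eta, Equiv.symm_apply_apply]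
  exact hz1.trans (hm2.trans (le_of_eq (by rw [pow_add, mul_comm])))

theorem geo {θ c : ℝ} (h0 : 0 ≤ θ) (h1 : θ < 1) (hc : 0 ≤ c) (l : ℕ) :
    ∑' m, ENNReal.ofReal (c * θ ^ (l + m)) = ENNReal.ofReal (c * θ ^ l * (1 - θ)⁻¹) := by
  have hs := (hasSum_geometric_of_lt_one h0 h1).mul_left (c * θ ^ l)
  simp only [pow_add, ← mul_assoc]
  rw [← ENNReal.ofReal_tsum_of_nonneg (fun _ => by positivity) hs.summable, hs.tsum_eq]

theorem null {k : ℕ} {b s T ℓ : ℝ} (hb : 0 ≤ b) (hs : 0 < s) (hsb : s + b < k + 2) (hT : 1 ≤ T)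
    (hℓ : 0 < ℓ) {A K : Set (E k)} (hA : BoxLe A b) (h0 : μH[s] K = 0) :
    volume {w : W k | w ∈ closedBall (0 : W k) 1 ∧ ∃ y ∈ A, ∃ r t₀ : ℝ,
      ∀ t ∈ Icc t₀ (t₀ + ℓ), |t| ≤ T ∧ y + r • stem k + t • dir w ∈ K} = 0 := by
  obtain ⟨ε, hε⟩ : ∃ ε : ℝ, ε = (k + 2 - b - s) / (k + 5) := ⟨_, rfl⟩
  have hk : (0 : ℝ) < k + 5 := by positivity
  have he : (k + 5) * ε = k + 2 - b - s := by rw [hε]; field_simp
  have hε0 : 0 < ε := by rw [hε]; exact div_pos (by linarith) hk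
  have hε1 : ε ≤ 1 := by rw [hε, div_le_one hk]; linarith
  obtain ⟨J, hJ0, hJ⟩ := gk_int (a := 1 - ε) (by linarith)
  obtain ⟨C₀, hC⟩ := hA ε hε0
  choose S hS1 hS2 using fun l : ℕ => hC ((1 / 2) ^ l)
    ⟨by positivity, pow_le_one₀ (by norm_num) (by norm_num)⟩
  have hC0 : 0 ≤ C₀ := by simpa using (Nat.cast_nonneg _).trans (hS1 0)
  obtain ⟨θ, hθ⟩ : ∃ θ : ℝ, θ = (1 / 2) ^ ε := ⟨_, rfl⟩
  have hθ0 : 0 < θ := by rw [hθ]; positivity
  have hθ1 : θ < 1 := hθ ▸ Real.rpow_lt_one (by norm_num) (by norm_num) hε0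
  have hθl : ∀ l : ℕ, ((1 / 2 : ℝ) ^ l) ^ ε = θ ^ l := fun l => by
    rw [hθ, ← Real.rpow_natCast, ← Real.rpow_natCast, ← Real.rpow_mul (by norm_num),
      ← Real.rpow_mul (by norm_num), mul_comm]
  obtain ⟨C, hCd⟩ : ∃ C : ℝ, C = C₀ * 2 ^ s * 48 * T * 12 ^ (1 - ε) * J * 24 ^ k := ⟨_, rfl⟩
  have hCp : 0 ≤ C := by rw [hCd]; positivity
  have hlim : ∀ c : ℝ, Tendsto (fun l : ℕ => c * θ ^ l * (1 - θ)⁻¹) atTop (𝓝 0) := fun c => by
    simpa using ((tendsto_pow_atTop_nhds_zero_of_lt_one hθ0.le hθ1).const_mul c).mul_const (1 - θ)⁻¹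
  have hlim2 := ENNReal.tendsto_ofReal (hlim C)
  rw [ENNReal.ofReal_zero] at hlim2
  refine le_antisymm (ge_of_tendsto hlim2 ?_) zero_le
  filter_upwards [(hlim 3).eventually_lt_const hℓ] with l₀ hl₀
  obtain ⟨c, N, x, hN, hcov⟩ := cover hs h0 l₀
  let q := TopologicalSpace.denseSeq ℝ
  let G : ℕ → E k → Set (W k) := fun l p => {w : W k | w ∈ closedBall (0 : W k) 1 ∧ ∃ n,
    ENNReal.ofReal (θ ^ l) ≤ volume {t : ℝ | (θ ^ l ≤ |t| ∧ |t| ≤ T) ∧
      ∃ i < N l, p + q n • stem k + t • dir w ∈ closedBall (x l i) (3 * (1 / 2) ^ l)}}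
  have hG : ∀ l, volume (⋃ p ∈ S l, G l p) ≤ ENNReal.ofReal (C * θ ^ l) := by
    intro l
    have hδ : (0 : ℝ) < (1 / 2) ^ l := by positivity
    have hτ : 0 < θ ^ l := by positivity
    have h1 := expo (C := C₀) (T := T) (J := J) hδ he
    rw [hθl, ← hCd] at h1
    have h2 : ENNReal.ofReal (θ ^ l) ^ 2 ≠ 0 := pow_ne_zero _ (ENNReal.ofReal_pos.2 hτ).ne'
    refine (ENNReal.mul_le_mul_iff_right h2 (by finiteness)).1 ?_
    refine (mul_le_mul' le_rfl (measure_biUnion_finset_le _ _)).trans ?_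
    rw [Finset.mul_sum]
    refine (Finset.sum_le_card_nsmul _ _ _ fun p _ => (scale (by linarith) (by linarith) hT
      (by positivity) hτ hJ p (x l) q).trans (mul_le_mul' (hN l) le_rfl)).trans ?_
    rw [nsmul_eq_mul, ← ENNReal.ofReal_pow hτ.le, ← ENNReal.ofReal_mul (p := (θ ^ l) ^ 2) (by positivity),
      ← h1, ← ENNReal.ofReal_mul hJ0, ← ENNReal.ofReal_mul (p := 2 * _) (by positivity),
      ← ENNReal.ofReal_mul (p := 2 * _ * _) (by positivity),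
      ← ENNReal.ofReal_mul (p := (_ : ℝ)⁻¹) (by positivity),
      ENNReal.ofReal_mul (p := C₀ * _) (by positivity)]
    refine mul_le_mul' ?_ le_rfl
    rw [← ENNReal.ofReal_natCast]
    exact ENNReal.ofReal_le_ofReal (hS1 l)
  rw [← geo hθ0.le hθ1 hCp]
  refine (measure_mono ?_).trans ((measure_iUnion_le _).trans
    (ENNReal.tsum_le_tsum fun m => hG (l₀ + m)))
  rintro w ⟨hw, y, hy, r, t₀, ht⟩
  let U : ℕ → Set ℝ := fun l => {t | |t| ≤ T ∧ ∃ i < N l,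
    dist (y + r • stem k + t • dir w) (x l i) ≤ (1 / 2) ^ l}
  have hZ : volume ((fun t : ℝ => y + r • stem k + t • dir w) ⁻¹' range c) = 0 := by
    refine ((countable_range c).preimage fun t t' h => ?_).measure_zero _
    simpa [dir_zero] using congrArg (fun z : E k => z 0) (add_left_cancel h)
  obtain ⟨m, hm⟩ : ∃ m, ENNReal.ofReal (3 * θ ^ (l₀ + m)) ≤ volume (U (l₀ + m)) := by
    by_contra hc
    push Not at hc
    have h1 : volume (Icc t₀ (t₀ + ℓ)) ≤ volume (((fun t : ℝ => y + r • stem k + t • dir w) ⁻¹'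
        range c) ∪ ⋃ m, U (l₀ + m)) := measure_mono fun t h =>
      (hcov _ (ht t h).2).imp id fun ⟨m, hm⟩ => mem_iUnion.2 ⟨m, (ht t h).1, hm⟩
    have h2 := h1.trans (measure_union_le _ _)
    rw [hZ, zero_add, Real.volume_Icc, add_sub_cancel_left] at h2
    have h3 := h2.trans ((measure_iUnion_le _).trans (ENNReal.tsum_le_tsum fun m => (hc m).le))
    rw [geo hθ0.le hθ1 (by norm_num), ENNReal.ofReal_le_ofReal_iff
      (by have := sub_pos.2 hθ1; positivity)] at h3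
    linarith
  refine mem_iUnion.2 ⟨m, ?_⟩
  generalize l₀ + m = l at hm
  have hδ : (0 : ℝ) < (1 / 2) ^ l := by positivity
  have hτ : 0 < θ ^ l := by positivity
  obtain ⟨p, hp, hyp⟩ := mem_iUnion₂.1 (hS2 l hy)
  obtain ⟨n, hn⟩ := (TopologicalSpace.denseRange_denseSeq ℝ).exists_dist_lt r hδ
  refine mem_iUnion₂.2 ⟨p, hp, hw, n, ?_⟩
  have h1 : U l ⊆ closedBall (0 : ℝ) (θ ^ l) ∪ {t : ℝ | (θ ^ l ≤ |t| ∧ |t| ≤ T) ∧
      ∃ i < N l, p + q n • stem k + t • dir w ∈ closedBall (x l i) (3 * (1 / 2) ^ l)} := by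
    rintro t ⟨h1, i, hi, h2⟩
    rcases le_total |t| (θ ^ l) with h | h
    · exact Or.inl (by simpa using h)
    refine Or.inr ⟨⟨h, h1⟩, i, hi, ?_⟩
    have h3 : dist (p + q n • stem k + t • dir w) (y + r • stem k + t • dir w) ≤
        (1 / 2) ^ l + (1 / 2) ^ l := by
      rw [dist_add_right]
      refine (dist_add_add_le _ _ _ _).trans (add_le_add (by rw [dist_comm]; exact hyp) ?_)
      rw [dist_eq_norm, ← sub_smul, norm_smul, stem, EuclideanSpace.norm_single, norm_one, mul_one,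
        ← dist_eq_norm, dist_comm]
      exact hn.le
    have := dist_triangle (p + q n • stem k + t • dir w) (y + r • stem k + t • dir w) (x l i)
    rw [mem_closedBall]
    linarith
  have h2 := hm.trans ((measure_mono h1).trans (measure_union_le _ _))
  rw [Real.volume_closedBall, show 3 * θ ^ l = 2 * θ ^ l + θ ^ l by ring,
    ENNReal.ofReal_add (by positivity) hτ.le] at h2
  exact (ENNReal.add_le_add_iff_left ENNReal.ofReal_ne_top).1 h2

end Vale.Agent.P127H
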