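import Vale.Agent.P127H.Core

/-! One scale, one base point. -/

namespace Vale.Agent.P127H

open MeasureTheory Set Metric ENNReal

abbrev E (k : ℕ) := EuclideanSpace ℝ (Fin (k + 2))

noncomputable def stem (k : ℕ) : E k := EuclideanSpace.single 1 1

noncomputable def dir {k : ℕ} (w : W k) : E k :=
  EuclideanSpace.single 0 1 + w.1 • stem k + ∑ i, w.2 i • EuclideanSpace.single i.succ.succ 1

theorem dir_cont {k : ℕ} : Continuous (dir (k := k)) := by unfold dir; fun_prop

theorem dir_zero {k : ℕ} (w : W k) : dir w 0 = 1 := by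
  simp [dir, stem, Finset.sum_apply, (Fin.succ_ne_zero _).symm]

theorem one_ne {k : ℕ} (i : Fin k) : (1 : Fin (k + 2)) ≠ i.succ.succ := by
  intro h
  have := congrArg Fin.val h
  simp at this

theorem dir_one {k : ℕ} (w : W k) : dir w 1 = w.1 := by
  simp [dir, stem, Finset.sum_apply, one_ne]

theorem dir_succ {k : ℕ} (w : W k) (j : Fin k) : dir w j.succ.succ = w.2 j := by
  simp [dir, stem, Finset.sum_apply, (one_ne j).symm, Pi.single_apply]

theorem dir_norm {k : ℕ} (w : W k) (hw : w ∈ closedBall (0 : W k) 1) :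
    1 ≤ ‖dir w‖ ∧ ‖dir w‖ ≤ k + 2 := by
  rw [mem_closedBall_zero_iff] at hw
  constructor
  · have := PiLp.norm_apply_le (dir w) 0
    rwa [dir_zero, norm_one] at this
  · have h1 : ‖w.1 • stem k‖ ≤ 1 := by
      rw [norm_smul, stem, EuclideanSpace.norm_single, norm_one, mul_one]
      exact (norm_fst_le w).trans hw
    have h2 : ‖∑ i, w.2 i • (EuclideanSpace.single i.succ.succ 1 : E k)‖ ≤ k := by
      refine (norm_sum_le _ _).trans ((Finset.sum_le_card_nsmul _ _ 1 fun i _ => ?_).trans (by simp))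
      rw [norm_smul, EuclideanSpace.norm_single, norm_one, mul_one]
      exact (norm_le_pi_norm w.2 i).trans ((norm_snd_le w).trans hw)
    have h3 := norm_add₃_le (a := (EuclideanSpace.single 0 1 : E k)) (b := w.1 • stem k)
      (c := ∑ i, w.2 i • (EuclideanSpace.single i.succ.succ 1 : E k))
    rw [EuclideanSpace.norm_single, norm_one] at h3
    unfold dir
    linarith

theorem close {k : ℕ} {p : E k} {w w' : W k} (hw : w' ∈ closedBall (0 : W k) 1) {r r' t t' δ τ : ℝ}
    (hτ : 0 < τ) (ht : τ ≤ |t|)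
    (h : ‖(p + r • stem k + t • dir w) - (p + r' • stem k + t' • dir w')‖ ≤ δ) :
    |t - t'| ≤ 2 * δ ∧ ‖w.2 - w'.2‖ ≤ 2 * δ / τ ∧ |r - r' + t * (w.1 - w'.1)| ≤ 2 * δ := by
  rw [mem_closedBall_zero_iff] at hw
  have hδ : 0 ≤ δ := (norm_nonneg _).trans h
  have hco := fun i => (PiLp.norm_apply_le _ i).trans h
  have h0 : |t - t'| ≤ δ := by simpa [dir_zero, stem] using hco 0
  have key : ∀ z : ℝ, |z| ≤ 1 → |(t - t') * z| ≤ δ := fun z hz => by
    rw [abs_mul]
    exact (mul_le_of_le_one_right (abs_nonneg _) hz).trans h0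
  refine ⟨by linarith, ?_, ?_⟩
  · rw [pi_norm_le_iff_of_nonneg (by positivity)]
    intro j
    have h1 : |t * w.2 j - t' * w'.2 j| ≤ δ := by
      simpa [dir_succ, stem, (one_ne j).symm] using hco j.succ.succ
    have h2 := key (w'.2 j) ((norm_le_pi_norm w'.2 j).trans ((norm_snd_le w').trans hw))
    have h3 := abs_sub (t * w.2 j - t' * w'.2 j) ((t - t') * w'.2 j)
    have e : t * w.2 j - t' * w'.2 j - (t - t') * w'.2 j = t * (w.2 j - w'.2 j) := by ring
    rw [e, abs_mul] at h3
    rw [le_div_iff₀ hτ, Pi.sub_apply, Real.norm_eq_abs]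
    have := mul_le_mul_of_nonneg_right ht (abs_nonneg (w.2 j - w'.2 j))
    linarith
  · have h1 : |r + t * w.1 - (r' + t' * w'.1)| ≤ δ := by
      have := hco 1
      simp only [PiLp.sub_apply, PiLp.add_apply, PiLp.smul_apply, dir_one, stem, smul_eq_mul,
        EuclideanSpace.single_apply, if_true, mul_one, Real.norm_eq_abs] at this
      have e : r + t * w.1 - (r' + t' * w'.1) = p 1 + r + t * w.1 - (p 1 + r' + t' * w'.1) := by ring
      rw [e]
      exact this
    have h2 := key w'.1 ((norm_fst_le w').trans hw)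
    have h3 := abs_sub (r + t * w.1 - (r' + t' * w'.1)) ((t - t') * w'.1)
    have e : r + t * w.1 - (r' + t' * w'.1) - (t - t') * w'.1 = r - r' + t * (w.1 - w'.1) := by ring
    rw [e] at h3
    linarith

theorem scale {k N : ℕ} {a T δ τ J : ℝ} (ha0 : 0 ≤ a) (ha : a ≤ 1) (hT : 1 ≤ T) (hδ : 0 < δ)
    (hτ : 0 < τ) (hJ : ∀ c : ℝ, |c| ≤ 1 →
      ∫⁻ x in closedBall (0 : ℝ) 1, gk a (c - x) ≤ ENNReal.ofReal J)
    (p : E k) (x : ℕ → E k) (q : ℕ → ℝ) :
    ENNReal.ofReal τ ^ 2 * volume {w : W k | w ∈ closedBall (0 : W k) 1 ∧ ∃ n, ENNReal.ofReal τ ≤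
      volume {t : ℝ | (τ ≤ |t| ∧ |t| ≤ T) ∧
        ∃ i < N, p + q n • stem k + t • dir w ∈ closedBall (x i) δ}} ≤
      N * (ENNReal.ofReal (2 * (4 * δ)) * ENNReal.ofReal (2 * T * (4 * δ) ^ a) *
      (ENNReal.ofReal J * ENNReal.ofReal ((2 * (4 * δ / τ)) ^ k))) := by
  classical
  have hmeas : ∀ (h : W k → ℝ), Measurable h → ∀ i, MeasurableSet {z : W k × ℝ |
      (τ ≤ |z.2| ∧ |z.2| ≤ T) ∧ p + h z.1 • stem k + z.2 • dir z.1 ∈ closedBall (x i) δ} := by
    intro h hh i
    have m1 : MeasurableSet {z : W k × ℝ | τ ≤ |z.2|} := measurableSet_le (by fun_prop) (by fun_prop)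
    have m2 : MeasurableSet {z : W k × ℝ | |z.2| ≤ T} := measurableSet_le (by fun_prop) (by fun_prop)
    have hd := (dir_cont (k := k)).measurable
    have m3 : Measurable fun z : W k × ℝ => p + h z.1 • stem k + z.2 • dir z.1 := by fun_prop
    exact (m1.inter m2).inter (m3 measurableSet_closedBall)
  let P : ℕ → W k → Prop := fun n w => ENNReal.ofReal τ ≤ volume {t : ℝ | (τ ≤ |t| ∧ |t| ≤ T) ∧
        ∃ i < N, p + q n • stem k + t • dir w ∈ closedBall (x i) δ}
  have hP : ∀ n, MeasurableSet {w | P n w} := by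
    intro n
    have h1 := measurable_measure_prodMk_left (ν := (volume : Measure ℝ))
      ((Finset.range N).measurableSet_biUnion fun i _ => hmeas (fun _ => q n) measurable_const i)
    refine (congrArg MeasurableSet ?_).mp (measurableSet_le measurable_const h1
      (f := fun _ => ENNReal.ofReal τ))
    ext w
    simp only [P, mem_setOf_eq]
    congr! 2
    ext t
    simp only [mem_preimage, mem_iUnion, Finset.mem_range, mem_setOf_eq]
    tauto
  have hex : MeasurableSet {w | ∃ n, P n w} := by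
    rw [setOf_exists]
    exact MeasurableSet.iUnion hP
  have hall : ∀ w, ∃ n, P n w ∨ ¬∃ n, P n w := fun w => by
    by_cases h : ∃ n, P n w
    · exact h.imp fun n hn => Or.inl hn
    · exact ⟨0, Or.inr h⟩
  let h : W k → ℝ := fun w => q (Nat.find (hall w))
  have hh : Measurable h := Measurable.find (f := fun n _ => q n)
    (p := fun n w => P n w ∨ ¬∃ n, P n w) (fun _ => measurable_const)
    (fun n => (hP n).union hex.compl) hall
  let S₀ : ℕ → Set (W k × ℝ) := fun i => {z | z.1 ∈ closedBall (0 : W k) 1} ∩ {z : W k × ℝ |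
      (τ ≤ |z.2| ∧ |z.2| ≤ T) ∧ p + h z.1 • stem k + z.2 • dir z.1 ∈ closedBall (x i) δ}
  have hS₀ : ∀ i, MeasurableSet (S₀ i) := fun i =>
    (measurable_fst measurableSet_closedBall).inter (hmeas h hh i)
  refine core ha0 ha hT (by positivity) (by positivity) hJ _ (measurableSet_closedBall.inter hex)
    (fun w hw => hw.1) h (disjointed S₀) (MeasurableSet.disjointed hS₀) (disjoint_disjointed S₀)
    ?_ _ ?_
  · intro i y hy z hz
    have hy' := disjointed_subset S₀ i hy
    have hz' := disjointed_subset S₀ i hz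
    have hn : ‖(p + h y.1 • stem k + y.2 • dir y.1) - (p + h z.1 • stem k + z.2 • dir z.1)‖ ≤ 2 * δ := by
      rw [← dist_eq_norm]
      have := dist_triangle_right (p + h y.1 • stem k + y.2 • dir y.1)
        (p + h z.1 • stem k + z.2 • dir z.1) (x i)
      have h1 := mem_closedBall.1 hy'.2.2
      have h2 := mem_closedBall.1 hz'.2.2
      linarith
    have := close hz'.1 hτ hy'.2.1.1 hn
    rw [show 2 * (2 * δ) = 4 * δ by ring] at this
    exact ⟨this.1, this.2.1, hy'.2.1.2, this.2.2⟩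
  · intro w hw
    have h1 : P (Nat.find (hall w)) w := (Nat.find_spec (hall w)).resolve_right (not_not.2 hw.2)
    refine le_trans h1 ((measure_mono ?_).trans (measure_biUnion_finset_le _ _))
    rintro t ⟨ht, i, hi, hti⟩
    have h2 : (w, t) ∈ S₀ i := ⟨hw.1, ht, hti⟩
    have h3 : ∃ j, (w, t) ∈ S₀ j := ⟨i, h2⟩
    simp only [mem_iUnion, Finset.mem_range, mem_preimage]
    refine ⟨Nat.find h3, (Nat.find_min' h3 h2).trans_lt hi, ?_⟩
    rw [disjointed_eq_inter_compl]
    exact ⟨Nat.find_spec h3, mem_iInter₂.2 fun j hj => Nat.find_min h3 hj⟩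

end Vale.Agent.P127H
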